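import Mathlib

/-! Definitions for P082 (Kadison-Ringrose cohomology conjecture). -/

namespace Vale.Agent.Lib.P082

/-- `(a_1,...,a_{k+1}) ↦ (a_1,...,a_j a_{j+1},...,a_{k+1})` (indices start at `0` here) -/
def merge {M : Type*} [Mul M] {k : ℕ} (j : Fin k) (a : Fin (k + 1) → M) : Fin k → M :=
  fun i => if i < j then a i.castSucc else if i = j then a i.castSucc * a i.succ else a i.succ

/-- the Hochschild differential of a `k`-cochain, evaluated at a `(k+1)`-tuple -/
def hd {M : Type*} [Ring M] {k : ℕ} (f : (Fin k → M) → M) (a : Fin (k + 1) → M) : M :=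
  a 0 * f (Fin.tail a) + ∑ j : Fin k, (-1) ^ (j.val + 1) * f (merge j a)
    + (-1) ^ (k + 1) * (f (Fin.init a) * a (Fin.last k))

/-- bounded `k`-linear maps `M^k → M` with the operator norm -/
abbrev Cochain (k : ℕ) (M : Type*) [CStarAlgebra M] :=
  ContinuousMultilinearMap ℂ (fun _ : Fin k => M) M

/-- `H_b^{k+1}(M,M) = 0` for every von Neumann algebra `M` -/
def KR (k : ℕ) : Prop :=
  ∀ (M : Type) [CStarAlgebra M] [WStarAlgebra M] (f : Cochain (k + 1) M),
    (∀ a, hd f a = 0) → ∃ g : Cochain k M, ∀ a, f a = hd g a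

/-- the same with a universal bound on the norm of the cobounding cochain -/
def UKR (k : ℕ) : Prop :=
  ∃ K : ℝ, ∀ (M : Type) [CStarAlgebra M] [WStarAlgebra M] (f : Cochain (k + 1) M),
    (∀ a, hd f a = 0) → ∃ g : Cochain k M, (∀ a, f a = hd g a) ∧ ‖g‖ ≤ K * ‖f‖

end Vale.Agent.Lib.P082
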