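import Vale.Agent.Lib.P082.Defs

namespace Vale.Agent.Lib.P082

open scoped ENNReal

section Aux

variable (X : ℕ → Type) [∀ n, NormedAddCommGroup (X n)] [∀ n, NormedSpace ℂ (X n)]

omit [∀ n, NormedSpace ℂ (X n)] in
theorem l1_hasSum_norm (x : lp X 1) : HasSum (fun n => ‖x n‖) ‖x‖ := by
  have h := lp.hasSum_norm (p := 1) (by simp) x
  simpa using h

theorem dualL1_comp_norm_le (φ : StrongDual ℂ (lp X 1)) (n : ℕ) :
    ‖φ.comp (lp.singleContinuousLinearMap ℂ X 1 n)‖ ≤ ‖φ‖ := by
  refine ContinuousLinearMap.opNorm_le_bound _ (norm_nonneg _) fun a => ?_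
  have h := φ.le_opNorm (lp.single 1 n a)
  rw [lp.norm_single (by simp)] at h
  simpa using h

/-- restriction of a functional to the coordinates -/
noncomputable def dualL1Fun (φ : StrongDual ℂ (lp X 1)) :
    lp (fun n => StrongDual ℂ (X n)) ∞ :=
  ⟨fun n => φ.comp (lp.singleContinuousLinearMap ℂ X 1 n),
    memℓp_infty ⟨‖φ‖, by rintro _ ⟨n, rfl⟩; exact dualL1_comp_norm_le X φ n⟩⟩

theorem dualL1Fun_apply (φ : StrongDual ℂ (lp X 1)) (n : ℕ) :
    dualL1Fun X φ n = φ.comp (lp.singleContinuousLinearMap ℂ X 1 n) := rfl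

theorem dualL1Fun_norm_le (φ : StrongDual ℂ (lp X 1)) : ‖dualL1Fun X φ‖ ≤ ‖φ‖ :=
  lp.norm_le_of_forall_le (norm_nonneg _) fun n => dualL1_comp_norm_le X φ n

theorem dualL1_pair_summable (m : lp (fun n => StrongDual ℂ (X n)) ∞) (x : lp X 1) :
    Summable (fun n => ‖m n (x n)‖) := by
  refine Summable.of_nonneg_of_le (fun n => norm_nonneg _) (fun n => ?_)
    ((l1_hasSum_norm X x).summable.mul_left ‖m‖)
  exact ((m n).le_opNorm (x n)).trans
    (mul_le_mul_of_nonneg_right (lp.norm_apply_le_norm (by simp) m n) (norm_nonneg _))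

theorem dualL1_pair_norm_le (m : lp (fun n => StrongDual ℂ (X n)) ∞) (x : lp X 1) :
    ‖∑' n, m n (x n)‖ ≤ ‖m‖ * ‖x‖ := by
  refine (norm_tsum_le_tsum_norm (dualL1_pair_summable X m x)).trans ?_
  rw [← (l1_hasSum_norm X x).tsum_eq, ← tsum_mul_left]
  refine (dualL1_pair_summable X m x).tsum_le_tsum (fun n => ?_)
    ((l1_hasSum_norm X x).summable.mul_left ‖m‖)
  exact ((m n).le_opNorm (x n)).trans
    (mul_le_mul_of_nonneg_right (lp.norm_apply_le_norm (by simp) m n) (norm_nonneg _))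

theorem dualL1_eval (φ : StrongDual ℂ (lp X 1)) (x : lp X 1) :
    φ x = ∑' n, dualL1Fun X φ n (x n) := by
  have h := (lp.hasSum_single (p := 1) (by simp) x).map φ φ.continuous
  exact h.tsum_eq.symm

theorem dualL1Fun_le_norm (φ : StrongDual ℂ (lp X 1)) : ‖φ‖ ≤ ‖dualL1Fun X φ‖ := by
  refine ContinuousLinearMap.opNorm_le_bound _ (norm_nonneg _) fun x => ?_
  rw [dualL1_eval X φ x]
  exact dualL1_pair_norm_le X _ x

/-- the functional on the `l_1`-sum given by a bounded family of functionals -/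
noncomputable def dualL1Inv (m : lp (fun n => StrongDual ℂ (X n)) ∞) :
    StrongDual ℂ (lp X 1) :=
  LinearMap.mkContinuous
    { toFun := fun x => ∑' n, m n (x n)
      map_add' := fun x y => by
        have hx := (dualL1_pair_summable X m x).of_norm
        have hy := (dualL1_pair_summable X m y).of_norm
        rw [← hx.tsum_add hy]
        refine tsum_congr fun n => ?_
        simp
      map_smul' := fun c x => by
        rw [RingHom.id_apply, smul_eq_mul, ← tsum_mul_left]
        refine tsum_congr fun n => ?_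
        simp }
    ‖m‖ (fun x => dualL1_pair_norm_le X m x)

theorem dualL1Inv_apply (m : lp (fun n => StrongDual ℂ (X n)) ∞) (x : lp X 1) :
    dualL1Inv X m x = ∑' n, m n (x n) := rfl

theorem dualL1Fun_Inv (m : lp (fun n => StrongDual ℂ (X n)) ∞) :
    dualL1Fun X (dualL1Inv X m) = m := by
  apply lp.ext
  funext n
  rw [dualL1Fun_apply]
  ext a
  rw [ContinuousLinearMap.comp_apply, lp.singleContinuousLinearMap_apply, dualL1Inv_apply,
    tsum_eq_single n]
  · rw [lp.single_apply_self]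
  · intro k hk
    rw [lp.single_apply_ne _ _ _ hk, map_zero]

/-- the coordinate restriction as a linear isometry -/
noncomputable def dualL1Iso :
    StrongDual ℂ (lp X 1) →ₗᵢ[ℂ] lp (fun n => StrongDual ℂ (X n)) ∞ where
  toFun := dualL1Fun X
  map_add' := fun φ ψ => by
    apply lp.ext
    funext n
    rfl
  map_smul' := fun c φ => by
    apply lp.ext
    funext n
    rfl
  norm_map' := fun φ => le_antisymm (dualL1Fun_norm_le X φ) (dualL1Fun_le_norm X φ)

end Aux

/-- the dual of an `l_1`-sum is the `l_∞`-sum of the duals -/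
theorem dualL1 (X : ℕ → Type) [∀ n, NormedAddCommGroup (X n)] [∀ n, NormedSpace ℂ (X n)] :
    Nonempty (StrongDual ℂ (lp X 1) ≃ₗᵢ[ℂ] lp (fun n => StrongDual ℂ (X n)) ∞) :=
  ⟨LinearIsometryEquiv.ofSurjective (dualL1Iso X) fun m => ⟨dualL1Inv X m, dualL1Fun_Inv X m⟩⟩

end Vale.Agent.Lib.P082
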