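import Vale.Agent.Lib.P082.Sum

namespace Vale.Agent.Lib.P082

open scoped ENNReal

set_option linter.unusedSectionVars false

variable (M : ℕ → Type) [∀ n, CStarAlgebra (M n)] [∀ n, Nontrivial (M n)]

private theorem c_mul (x y : lp M ∞) (n : ℕ) : (x * y) n = x n * y n :=
  congrFun (lp.infty_coeFn_mul x y) n

private theorem c_add (x y : lp M ∞) (n : ℕ) : (x + y) n = x n + y n :=
  congrFun (lp.coeFn_add x y) n

private theorem c_sum {ι : Type*} (s : Finset ι) (x : ι → lp M ∞) (n : ℕ) :
    (∑ i ∈ s, x i) n = ∑ i ∈ s, x i n := by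
  rw [lp.coeFn_sum, Finset.sum_apply]

private theorem c_sign (m n : ℕ) : (((-1 : lp M ∞)) ^ m) n = (-1) ^ m := by
  induction m with
  | zero =>
    rw [pow_zero, pow_zero]
    exact congrFun (lp.infty_coeFn_one (B := M)) n
  | succ m ih =>
    rw [pow_succ, pow_succ, c_mul, ih]
    congr 1

private theorem merge_coord {k : ℕ} (j : Fin k) (a : Fin (k + 1) → lp M ∞) (n : ℕ) :
    (fun i => merge j a i n) = merge j (fun i => a i n) := by
  funext i
  unfold merge
  split_ifs
  · rfl
  · exact c_mul M _ _ n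
  · rfl

/-- the differential of a coordinatewise cochain is computed coordinatewise -/
theorem hd_sum {k : ℕ} (F : (Fin k → lp M ∞) → lp M ∞) (f : ∀ n, (Fin k → M n) → M n)
    (h : ∀ (a : Fin k → lp M ∞) (n : ℕ), (F a) n = f n (fun i => a i n))
    (a : Fin (k + 1) → lp M ∞) (n : ℕ) : (hd F a) n = hd (f n) (fun i => a i n) := by
  unfold hd
  rw [c_add, c_add, c_mul, c_mul, c_mul, c_sum, c_sign, h, h]
  congr 1
  congr 1
  apply Finset.sum_congr rfl
  intro j _
  rw [c_mul, c_sign, h, merge_coord]

private theorem single_mul (n : ℕ) (x y : M n) :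
    lp.single ∞ n (x * y) = (lp.single ∞ n x : lp M ∞) * lp.single ∞ n y := by
  apply lp.ext
  funext m
  rw [c_mul]
  by_cases hm : m = n
  · subst hm
    rw [lp.single_apply_self, lp.single_apply_self, lp.single_apply_self]
  · rw [lp.single_apply_ne _ _ _ hm, lp.single_apply_ne _ _ _ hm, zero_mul]

private theorem merge_single {k : ℕ} (j : Fin k) (n : ℕ) (a : Fin (k + 1) → M n) :
    merge j (fun i => (lp.single ∞ n (a i) : lp M ∞)) = fun i => lp.single ∞ n (merge j a i) := by
  funext i
  unfold merge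
  split_ifs
  · rfl
  · exact (single_mul M n _ _).symm
  · rfl

/-- the differential commutes with compression to the `n`-th summand -/
theorem hd_loc {k : ℕ} (G : (Fin k → lp M ∞) → lp M ∞) (n : ℕ) (g : (Fin k → M n) → M n)
    (h : ∀ a : Fin k → M n, g a = (G (fun i => lp.single ∞ n (a i))) n)
    (a : Fin (k + 1) → M n) : (hd G (fun i => lp.single ∞ n (a i))) n = hd g a := by
  unfold hd
  rw [c_add, c_add, c_mul, c_mul, c_mul, c_sum, c_sign, h, h, lp.single_apply_self,
    lp.single_apply_self]
  congr 1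
  congr 1
  apply Finset.sum_congr rfl
  intro j _
  rw [c_mul, c_sign, h, merge_single]

end Vale.Agent.Lib.P082
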