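import Vale.Agent.Lib.P082.Sum

namespace Vale.Agent.Lib.P082

open scoped ENNReal

variable (M : ℕ → Type) [∀ n, CStarAlgebra (M n)] [∀ n, Nontrivial (M n)]

/-- the compression of a cochain on the `l_∞`-sum to the `n`-th summand -/
theorem locCochain {k : ℕ} (G : Cochain k (lp M ∞)) (n : ℕ) :
    ∃ g : Cochain k (M n), ‖g‖ ≤ ‖G‖ ∧
      ∀ a : Fin k → M n, g a = (G (fun i => lp.single ∞ n (a i))) n := by
  let g : Cochain k (M n) :=
    (lp.evalCLM ℂ M ∞ n).compContinuousMultilinearMap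
      (G.compContinuousLinearMap (fun _ => lp.singleContinuousLinearMap ℂ M ∞ n))
  have hg : ∀ a : Fin k → M n, g a = (G (fun i => lp.single ∞ n (a i))) n := by
    intro a
    rfl
  refine ⟨g, ?_, hg⟩
  apply ContinuousMultilinearMap.opNorm_le_bound (norm_nonneg _)
  intro a
  rw [hg]
  calc ‖(G (fun i => lp.single ∞ n (a i))) n‖ ≤ ‖G (fun i => lp.single ∞ n (a i))‖ :=
        lp.norm_apply_le_norm ENNReal.top_ne_zero _ n
    _ ≤ ‖G‖ * ∏ i, ‖lp.single ∞ n (a i)‖ := G.le_opNorm _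
    _ = ‖G‖ * ∏ i, ‖a i‖ := by
        congr 1
        apply Finset.prod_congr rfl
        intro i _
        exact lp.norm_single (by simp) n (a i)

end Vale.Agent.Lib.P082
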