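import Vale.Agent.Lib.P082.Main

namespace Vale.Agent.Lib.P082

open scoped ENNReal

theorem hd_smul {M : Type*} [CStarAlgebra M] {k : ℕ} (c : ℂ) (f : (Fin k → M) → M)
    (a : Fin (k + 1) → M) : hd (fun x => c • f x) a = c • hd f a := by
  unfold hd
  simp only [mul_smul_comm, smul_mul_assoc, smul_add, Finset.smul_sum]

theorem hd_zero {M : Type*} [CStarAlgebra M] {k : ℕ} (a : Fin (k + 1) → M) :
    hd (fun _ : Fin k → M => (0 : M)) a = 0 := by
  unfold hd
  simp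

theorem ukr_of_kr {k : ℕ} (hKR : KR k) : UKR k := by
  by_contra hcon
  unfold UKR at hcon
  push Not at hcon
  have hcon' : ∀ n : ℕ, ∃ (M : Type) (i1 : CStarAlgebra M), WStarAlgebra M ∧
      ∃ (f : Cochain (k + 1) M), (∀ a, hd f a = 0) ∧
        ∀ g : Cochain k M, (∀ a, f a = hd g a) → (n : ℝ) * ‖f‖ < ‖g‖ := fun n => hcon n
  choose M i1 i2 f hc hbad using hcon'
  have hne : ∀ n, f n ≠ 0 := by
    intro n h0
    have := hbad n 0 (fun a => by
      rw [h0]
      exact (hd_zero a).symm)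
    rw [h0] at this
    simp at this
  have hnt : ∀ n, Nontrivial (M n) := by
    intro n
    by_contra hnot
    rw [not_nontrivial_iff_subsingleton] at hnot
    exact hne n (by ext a; exact Subsingleton.elim _ _)
  have hpos : ∀ n, 0 < ‖f n‖ := fun n => norm_pos_iff.mpr (hne n)
  obtain ⟨C, hC⟩ := family_bound hKR M (fun n => ((‖f n‖⁻¹ : ℝ) : ℂ) • f n)
    (fun n => by
      rw [norm_smul]
      simp [(hpos n).ne'])
    (fun n a => by
      have := hd_smul ((‖f n‖⁻¹ : ℝ) : ℂ) (f n) a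
      rw [hc n a, smul_zero] at this
      exact this)
  obtain ⟨n, hn⟩ := exists_nat_ge C
  obtain ⟨g, hg, hgC⟩ := hC n
  have h1 := hbad n (((‖f n‖ : ℝ) : ℂ) • g) (fun a => by
    have h2 := hd_smul ((‖f n‖ : ℝ) : ℂ) g a
    have h3 : hd (((‖f n‖ : ℝ) : ℂ) • g) a = ((‖f n‖ : ℝ) : ℂ) • hd g a := h2
    rw [h3, ← hg a]
    simp [smul_smul, (hpos n).ne'])
  rw [norm_smul] at h1
  simp only [Complex.norm_real, norm_norm] at h1
  have h4 : ‖f n‖ * ‖g‖ ≤ ‖f n‖ * (n : ℝ) :=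
    mul_le_mul_of_nonneg_left (hgC.trans hn) (hpos n).le
  linarith [mul_comm (n : ℝ) ‖f n‖]

end Vale.Agent.Lib.P082
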