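import Vale.Agent.Lib.P082.Sum

namespace Vale.Agent.Lib.P082

open scoped ENNReal

variable (M : ℕ → Type) [∀ n, CStarAlgebra (M n)] [∀ n, Nontrivial (M n)]

omit [∀ n, Nontrivial (M n)] in
private theorem sum_bound {k : ℕ} (f : ∀ n, Cochain k (M n)) {C : ℝ} (hf : ∀ n, ‖f n‖ ≤ C)
    (a : Fin k → lp M ∞) (n : ℕ) :
    ‖f n (fun i => a i n)‖ ≤ max C 0 * ∏ i, ‖a i‖ := by
  calc ‖f n (fun i => a i n)‖ ≤ ‖f n‖ * ∏ i, ‖a i n‖ := (f n).le_opNorm _
    _ ≤ max C 0 * ∏ i, ‖a i‖ := by
      refine mul_le_mul ((hf n).trans (le_max_left _ _)) ?_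
        (Finset.prod_nonneg fun i _ => norm_nonneg _) (le_max_right _ _)
      exact Finset.prod_le_prod (fun i _ => norm_nonneg _)
        (fun i _ => lp.norm_apply_le_norm ENNReal.top_ne_zero (a i) n)

omit [∀ n, Nontrivial (M n)] in
private theorem sum_mem {k : ℕ} (f : ∀ n, Cochain k (M n)) {C : ℝ} (hf : ∀ n, ‖f n‖ ≤ C)
    (a : Fin k → lp M ∞) : Memℓp (fun n => f n (fun i => a i n)) ∞ := by
  refine memℓp_infty ⟨max C 0 * ∏ i, ‖a i‖, ?_⟩
  rintro _ ⟨n, rfl⟩
  exact sum_bound M f hf a n

omit [∀ n, Nontrivial (M n)] in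
private theorem upd {k : ℕ} [DecidableEq (Fin k)] (a : Fin k → lp M ∞) (i : Fin k) (x : lp M ∞)
    (n : ℕ) :
    (fun j => (Function.update a i x j) n) = Function.update (fun j => a j n) i (x n) := by
  funext j
  by_cases h : j = i
  · subst h; simp
  · simp [Function.update_of_ne h]

/-- the direct sum of a uniformly bounded family of cochains -/
theorem sumCochain {k : ℕ} (f : ∀ n, Cochain k (M n)) {C : ℝ} (hf : ∀ n, ‖f n‖ ≤ C) :
    ∃ F : Cochain k (lp M ∞), ∀ (a : Fin k → lp M ∞) (n : ℕ), (F a) n = f n (fun i => a i n) := by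
  let F0 : MultilinearMap ℂ (fun _ : Fin k => lp M ∞) (lp M ∞) :=
    { toFun := fun a => ⟨fun n => f n (fun i => a i n), sum_mem M f hf a⟩
      map_update_add' := by
        intro _ a i x y
        ext n
        have e1 := congrArg (f n) (upd M a i (x + y) n)
        have e2 := congrArg (f n) (upd M a i x n)
        have e3 := congrArg (f n) (upd M a i y n)
        have e4 := (f n).map_update_add (fun j => a j n) i (x n) (y n)
        exact e1.trans (e4.trans (congrArg₂ (· + ·) e2.symm e3.symm))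
      map_update_smul' := by
        intro _ a i c x
        ext n
        have e1 := congrArg (f n) (upd M a i (c • x) n)
        have e2 := congrArg (f n) (upd M a i x n)
        have e4 := (f n).map_update_smul (fun j => a j n) i c (x n)
        exact e1.trans (e4.trans (congrArg (c • ·) e2.symm)) }
  refine ⟨F0.mkContinuous (max C 0) ?_, fun a n => rfl⟩
  intro a
  refine lp.norm_le_of_forall_le
    (mul_nonneg (le_max_right _ _) (Finset.prod_nonneg fun i _ => norm_nonneg _)) ?_
  intro n
  exact sum_bound M f hf a n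

end Vale.Agent.Lib.P082
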