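import Vale.Agent.Lib.P082.WStar
import Vale.Agent.Lib.P082.SumCochain
import Vale.Agent.Lib.P082.LocCochain
import Vale.Agent.Lib.P082.HdSum

namespace Vale.Agent.Lib.P082

open scoped ENNReal

/-- a sequence of cocycles of norm at most one on von Neumann algebras can be cobounded with a
common bound, if the conjecture holds in that degree -/
theorem family_bound {k : ℕ} (hKR : KR k) (M : ℕ → Type) [∀ n, CStarAlgebra (M n)]
    [∀ n, Nontrivial (M n)] [∀ n, WStarAlgebra (M n)] (f : ∀ n, Cochain (k + 1) (M n))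
    (hf : ∀ n, ‖f n‖ ≤ 1) (hc : ∀ n a, hd (f n) a = 0) :
    ∃ C : ℝ, ∀ n, ∃ g : Cochain k (M n), (∀ a, f n a = hd g a) ∧ ‖g‖ ≤ C := by
  obtain ⟨F, hF⟩ := sumCochain M f hf
  haveI := wstar_sum M
  have hFc : ∀ a, hd F a = 0 := by
    intro a
    ext n
    rw [hd_sum M F (fun n => f n) hF a n, hc n]
    rfl
  obtain ⟨G, hG⟩ := hKR (lp M ∞) F hFc
  refine ⟨‖G‖, fun n => ?_⟩
  obtain ⟨g, hg, hga⟩ := locCochain M G n
  refine ⟨g, fun a => ?_, hg⟩
  rw [← hd_loc M G n g hga a, ← hG, hF]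
  congr 1
  funext i
  simp

theorem kr_of_ukr {k : ℕ} (h : UKR k) : KR k := by
  obtain ⟨K, hK⟩ := h
  intro M _ _ f hf
  obtain ⟨g, hg, _⟩ := hK M f hf
  exact ⟨g, hg⟩

end Vale.Agent.Lib.P082
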