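import Vale.Agent.Lib.P082.Defs

namespace Vale.Agent.Lib.P082

open scoped ENNReal

theorem memInf {A B : ℕ → Type} [∀ n, NormedAddCommGroup (A n)] [∀ n, NormedSpace ℂ (A n)]
    [∀ n, NormedAddCommGroup (B n)] [∀ n, NormedSpace ℂ (B n)]
    (e : ∀ n, A n ≃ₗᵢ⋆[ℂ] B n) (x : lp A ∞) : Memℓp (fun n => e n (x n)) ∞ := by
  apply memℓp_infty
  refine ⟨‖x‖, ?_⟩
  rintro _ ⟨n, rfl⟩
  simp only [LinearIsometryEquiv.norm_map]
  exact lp.norm_apply_le_norm ENNReal.top_ne_zero x n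

/-- the coordinatewise map -/
noncomputable def mapInfFun {A B : ℕ → Type} [∀ n, NormedAddCommGroup (A n)]
    [∀ n, NormedSpace ℂ (A n)] [∀ n, NormedAddCommGroup (B n)] [∀ n, NormedSpace ℂ (B n)]
    (e : ∀ n, A n ≃ₗᵢ⋆[ℂ] B n) (x : lp A ∞) : lp B ∞ :=
  ⟨fun n => e n (x n), memInf e x⟩

theorem mapInfFun_apply {A B : ℕ → Type} [∀ n, NormedAddCommGroup (A n)]
    [∀ n, NormedSpace ℂ (A n)] [∀ n, NormedAddCommGroup (B n)] [∀ n, NormedSpace ℂ (B n)]
    (e : ∀ n, A n ≃ₗᵢ⋆[ℂ] B n) (x : lp A ∞) (n : ℕ) : mapInfFun e x n = e n (x n) := rfl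

/-- a family of conjugate-linear isometric equivalences induces one between the `l_∞`-sums -/
theorem mapInf (A B : ℕ → Type) [∀ n, NormedAddCommGroup (A n)] [∀ n, NormedSpace ℂ (A n)]
    [∀ n, NormedAddCommGroup (B n)] [∀ n, NormedSpace ℂ (B n)]
    (e : ∀ n, A n ≃ₗᵢ⋆[ℂ] B n) : Nonempty (lp A ∞ ≃ₗᵢ⋆[ℂ] lp B ∞) := by
  refine ⟨{ toLinearEquiv :=
      { toFun := mapInfFun e
        invFun := mapInfFun (fun n => (e n).symm)
        left_inv := ?_
        right_inv := ?_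
        map_add' := ?_
        map_smul' := ?_ }
            norm_map' := ?_ }⟩
  · intro x y
    ext n
    simp [mapInfFun_apply]
  · intro c x
    ext n
    simp only [mapInfFun_apply, lp.coeFn_smul, Pi.smul_apply]
    exact (e n).map_smulₛₗ c (x n)
  · intro x
    ext n
    simp [mapInfFun_apply]
  · intro x
    ext n
    simp [mapInfFun_apply]
  · intro x
    change ‖mapInfFun e x‖ = ‖x‖
    apply le_antisymm
    · apply lp.norm_le_of_forall_le (norm_nonneg _)
      intro n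
      rw [mapInfFun_apply, LinearIsometryEquiv.norm_map]
      exact lp.norm_apply_le_norm ENNReal.top_ne_zero x n
    · apply lp.norm_le_of_forall_le (norm_nonneg _)
      intro n
      have h := lp.norm_apply_le_norm ENNReal.top_ne_zero (mapInfFun e x) n
      rwa [mapInfFun_apply, LinearIsometryEquiv.norm_map] at h

end Vale.Agent.Lib.P082
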