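import Vale.Agent.Lib.P082.Defs

namespace Vale.Agent.Lib.P082

open scoped ENNReal

/-- the `l_∞`-sum of a sequence of (nonzero) C*-algebras -/
noncomputable instance instCStarSum (M : ℕ → Type) [∀ n, CStarAlgebra (M n)]
    [∀ n, Nontrivial (M n)] : CStarAlgebra (lp M ∞) := { }

end Vale.Agent.Lib.P082
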