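import Vale.Agent.Lib.P082.Sum
import Vale.Agent.Lib.P082.DualL1
import Vale.Agent.Lib.P082.MapInf

namespace Vale.Agent.Lib.P082

open scoped ENNReal

/-- the `l_∞`-sum of von Neumann algebras is a von Neumann algebra (predual: the `l_1`-sum of
the preduals) -/
theorem wstar_sum (M : ℕ → Type) [∀ n, CStarAlgebra (M n)] [∀ n, Nontrivial (M n)]
    [h : ∀ n, WStarAlgebra (M n)] : WStarAlgebra (lp M ∞) := by
  have h' := fun n => (h n).exists_predual
  choose X i1 i2 i3 e using h'
  obtain ⟨d⟩ := dualL1 X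
  obtain ⟨m⟩ := mapInf (fun n => StrongDual ℂ (X n)) M (fun n => (e n).some)
  exact ⟨⟨lp X 1, inferInstance, inferInstance, inferInstance, ⟨d.trans m⟩⟩⟩

end Vale.Agent.Lib.P082
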